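import Vale.Agent.P214.B.Main

namespace Vale.Agent.Results.P214.B_dim

open MeasureTheory Set Vale.Agent.P214
open scoped ENNReal

theorem result (m n : ℕ) (hm : 1 ≤ m) (_hn : 1 ≤ n) (U : Set (Sp (m + n))) (hU : IsOpen U)
    (V : IntVarifold m (m + n) U) (hV : V.Stationary)
    (F : Set (Submodule ℝ (Sp (m + n)))) (hF : F.Finite) (hT : ∀ᵐ x ∂V.μ, V.T x ∈ F) :
    dimH {p | p ∈ V.μ.support ∩ U ∧ ¬V.FlatRegular p} ≤ (m : ℝ≥0∞) - 1 :=
  V.dim_le hm hU hV hF hT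

end Vale.Agent.Results.P214.B_dim
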